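import Vale.Agent.Lib.P171.Regular

/-!
# P171: the phase transition theorem, stated with Mathlib notions only

Same potential as in `PhaseTransition` and `PhaseTransitionRegular`; here the statement is written
out in full: no definition of ours occurs in it. The inverse temperature is `β = 1`, so the Boltzmann
factor is `exp (-1 * U_N)`.
-/

namespace Vale.Agent.Results.P171.ExplicitStatement

open Vale.Agent.Lib.P171

theorem result :
    ∃ φ : ℝ → ℝ, Measurable φ ∧ (∃ M : ℝ, ∀ r, |φ r| ≤ M) ∧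
      (∃ B : ℝ, ∀ (N : ℕ) (x : Fin N → EuclideanSpace ℝ (Fin 3)),
        -(B * (N : ℝ)) ≤ ∑ i, ∑ j ∈ Finset.univ.filter (fun j => i < j), φ ‖x i - x j‖) ∧
      (∃ C ε R₀ : ℝ, 0 < C ∧ 0 < ε ∧ 0 < R₀ ∧ ∀ r : ℝ, R₀ ≤ r → φ r ≤ C * r ^ (-3 - ε)) ∧
      (∃ ψ : ℝ → ℝ, Antitone ψ ∧ (∀ r, |φ r| ≤ ψ r) ∧
        MeasureTheory.Integrable (fun x : EuclideanSpace ℝ (Fin 3) => ψ ‖x‖)) ∧
      ∃ P : ℝ → ℝ,
        (∀ (L : ℝ) (N : ℕ), 0 ≤ L → MeasureTheory.IntegrableOn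
          (fun x : Fin N → EuclideanSpace ℝ (Fin 3) =>
            Real.exp (-1 * ∑ i, ∑ j ∈ Finset.univ.filter (fun j => i < j), φ ‖x i - x j‖))
          (Set.pi Set.univ (fun _ : Fin N =>
            {y : EuclideanSpace ℝ (Fin 3) | ∀ i, 0 ≤ y i ∧ y i ≤ L}))) ∧
        (∀ z L : ℝ, 0 < z → 0 ≤ L → Summable fun N : ℕ => z ^ N * (((N.factorial : ℝ))⁻¹ *
          ∫ x in Set.pi Set.univ (fun _ : Fin N =>
            {y : EuclideanSpace ℝ (Fin 3) | ∀ i, 0 ≤ y i ∧ y i ≤ L}),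
            Real.exp (-1 * ∑ i, ∑ j ∈ Finset.univ.filter (fun j => i < j), φ ‖x i - x j‖))) ∧
        (∀ z : ℝ, 0 < z → Filter.Tendsto (fun L : ℝ =>
          Real.log (∑' N : ℕ, z ^ N * (((N.factorial : ℝ))⁻¹ *
            ∫ x in Set.pi Set.univ (fun _ : Fin N =>
              {y : EuclideanSpace ℝ (Fin 3) | ∀ i, 0 ≤ y i ∧ y i ≤ L}),
              Real.exp (-1 * ∑ i, ∑ j ∈ Finset.univ.filter (fun j => i < j), φ ‖x i - x j‖)))
            / L ^ 3) Filter.atTop (nhds (P z))) ∧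
        ∃ z : ℝ, 0 < z ∧ ¬ DifferentiableAt ℝ P z := by
  obtain ⟨R, hR, μ, hμ⟩ := main_press
  have hk := adm_final hR
  have hφ := ker_eq_phi R
  obtain ⟨h1, h2, h3⟩ := isPressure_of_adm hk hφ
  exact ⟨phi R, measurable_phi hR, phi_bounded hR, stable_of_adm hk hφ, tempered_phi hR,
    ⟨psi R, psi_antitone hR, abs_phi_le_psi hR, integrable_psi hR⟩,
    fun z => press (ker aa (Atail R 0)) (Real.log z), h1, h2, h3,
    Real.exp μ, Real.exp_pos μ, not_differentiableAt_activity hμ⟩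

end Vale.Agent.Results.P171.ExplicitStatement
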