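import Vale.Agent.Lib.P171.Final

/-!
# P171: a stable, tempered, bounded radial pair potential on `ℝ³` with a phase transition

There is a bounded Borel function `φ` such that the pair potential `φ (|x - y|)` is stable and
tempered, the limit `Π(1, z)` exists for all `z > 0`, and `z ↦ Π(1, z)` is not differentiable at
some `z > 0` (clause (a) of the definition of a phase transition).
-/

namespace Vale.Agent.Results.P171.PhaseTransition

open Vale.Agent.Lib.P171

theorem result :
    ∃ φ : ℝ → ℝ, Measurable φ ∧ (∃ M : ℝ, ∀ r, |φ r| ≤ M) ∧ Stable φ ∧ Tempered φ ∧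
      ∃ P : ℝ → ℝ, IsPressure φ 1 P ∧ ∃ z : ℝ, 0 < z ∧ ¬ DifferentiableAt ℝ P z :=
  final

end Vale.Agent.Results.P171.PhaseTransition
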