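import Vale.Agent.Lib.P171.Regular

/-!
# P171: a phase transition for a stable, tempered, absolutely integrable radial pair potential

Same potential as in `PhaseTransition`, with one more property: `|φ|` has a radially decreasing
majorant which is integrable over `ℝ³` (regularity in the sense of Ruelle, from both sides).
The objects `pairEnergy`, `cube`, `canZ`, `Stable`, `Tempered`, `IsPressure` are defined in
`Vale/Agent/Lib/P171/Statement.lean`.
-/

namespace Vale.Agent.Results.P171.PhaseTransitionRegular

open Vale.Agent.Lib.P171

/-- There is a Borel radial pair potential `φ` on `ℝ³` which is stable, tempered, dominated in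
absolute value by a decreasing function `ψ` with `∫ ψ(|x|) dx < ∞`, whose pressure `Π(1, z)`
exists for all `z > 0` and is not differentiable at some `z > 0`. -/
theorem result :
    ∃ φ : ℝ → ℝ, Measurable φ ∧ Stable φ ∧ Tempered φ ∧
      (∃ ψ : ℝ → ℝ, Antitone ψ ∧ (∀ r, |φ r| ≤ ψ r) ∧
        MeasureTheory.Integrable (fun x : EuclideanSpace ℝ (Fin 3) => ψ ‖x‖)) ∧
      ∃ P : ℝ → ℝ, IsPressure φ 1 P ∧ ∃ z : ℝ, 0 < z ∧ ¬ DifferentiableAt ℝ P z :=
  final_regular

end Vale.Agent.Results.P171.PhaseTransitionRegular
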